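import Mathlib

/-!
# S0151 (row 113), leaf A0 (helper69): Neumann series, spectrum of `A* A`, monotone quadratic form

Abstract complex Hilbert space, Mathlib only.  Same names and signatures as
`Crest/Agent/Helper96/S0151/Blueprint.lean` (section `Abstract`, leaf A0).

* `one_sub_mul_tsum` : if `∑ ‖B ^ n‖ < ∞` then `∑ B ^ n` is a two-sided inverse of `1 - B`.
* `norm_le_tsum_mul_norm_one_sub` : `‖v‖ ≤ (∑ ‖B ^ n‖) * ‖(1 - B) v‖`.
* `spectrum_star_mul_self_subset` : if `a ‖v‖ ≤ ‖A v‖` then `spectrum ℝ (A* A) ⊆ [a², ‖A‖²]`.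
* `re_inner_le_of_le` : `P ≤ Q` (Loewner order) implies `re ⟪ξ, P ξ⟫ ≤ re ⟪ξ, Q ξ⟫`.
-/

set_option autoImplicit false

open scoped InnerProductSpace

namespace Crest.Agent.Helper69.S0151

variable {H : Type*} [NormedAddCommGroup H] [InnerProductSpace ℂ H] [CompleteSpace H]

/-- Leaf A0 (Neumann): `1 - B` is invertible when `∑ ‖B ^ n‖ < ∞`. -/
theorem one_sub_mul_tsum (B : H →L[ℂ] H) (hB : Summable fun n : ℕ => ‖B ^ n‖) :
    (1 - B) * ∑' n : ℕ, B ^ n = 1 ∧ (∑' n : ℕ, B ^ n) * (1 - B) = 1 := by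
  have hs : Summable fun n : ℕ => B ^ n := hB.of_norm
  have h0 : ∑' n : ℕ, B ^ n = 1 + ∑' n : ℕ, B ^ (n + 1) := by
    rw [hs.tsum_eq_zero_add]; simp
  have hl : B * ∑' n : ℕ, B ^ n = ∑' n : ℕ, B ^ (n + 1) := by
    rw [← hs.tsum_mul_left]
    exact tsum_congr fun n => (pow_succ' B n).symm
  have hr : (∑' n : ℕ, B ^ n) * B = ∑' n : ℕ, B ^ (n + 1) := by
    rw [← hs.tsum_mul_right]
    exact tsum_congr fun n => (pow_succ B n).symm
  constructor
  · rw [sub_mul, one_mul, hl, h0]; abel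
  · rw [mul_sub, mul_one, hr, h0]; abel

/-- Leaf A0 (Neumann). -/
theorem norm_le_tsum_mul_norm_one_sub (B : H →L[ℂ] H) (hB : Summable fun n : ℕ => ‖B ^ n‖)
    (v : H) : ‖v‖ ≤ (∑' n : ℕ, ‖B ^ n‖) * ‖(1 - B) v‖ := by
  have h := (one_sub_mul_tsum B hB).2
  have hv : v = (∑' n : ℕ, B ^ n) ((1 - B) v) := by
    have := congrArg (fun W : H →L[ℂ] H => W v) h
    simpa using this.symm
  calc ‖v‖ = ‖(∑' n : ℕ, B ^ n) ((1 - B) v)‖ := by rw [← hv]
    _ ≤ ‖∑' n : ℕ, B ^ n‖ * ‖(1 - B) v‖ := ContinuousLinearMap.le_opNorm _ _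
    _ ≤ (∑' n : ℕ, ‖B ^ n‖) * ‖(1 - B) v‖ :=
        mul_le_mul_of_nonneg_right (norm_tsum_le_tsum_norm hB) (norm_nonneg _)

/-- `⟪(A* A) v, v⟫ = ‖A v‖²`. -/
private theorem inner_star_mul_self (A : H →L[ℂ] H) (v : H) :
    ⟪(star A * A) v, v⟫_ℂ = ((‖A v‖ ^ 2 : ℝ) : ℂ) := by
  rw [mul_apply_eq_comp, ContinuousLinearMap.star_eq_adjoint,
    ContinuousLinearMap.adjoint_inner_left, inner_self_eq_norm_sq_to_K]
  push_cast; rfl

omit [CompleteSpace H] in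
/-- `⟪(r • 1) v, v⟫ = r ‖v‖²` for real `r`. -/
private theorem inner_algebraMap (r : ℝ) (v : H) :
    ⟪(algebraMap ℝ (H →L[ℂ] H) r) v, v⟫_ℂ = ((r * ‖v‖ ^ 2 : ℝ) : ℂ) := by
  rw [Algebra.algebraMap_eq_smul_one, smul_apply,
    one_apply_eq_self, ← Complex.coe_smul r v, inner_smul_left,
    inner_self_eq_norm_sq_to_K]
  simp

/-- Leaf A0 (Spec): spectrum of `A* A` for `A` bounded below. -/
theorem spectrum_star_mul_self_subset (A : H →L[ℂ] H) (a : ℝ) (ha : 0 ≤ a)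
    (hA : ∀ v, a * ‖v‖ ≤ ‖A v‖) :
    spectrum ℝ (star A * A) ⊆ Set.Icc (a ^ 2) (‖A‖ ^ 2) := by
  intro x hx
  constructor
  · -- lower bound: `A* A - a² ≥ 0`
    have hpos : (0 : H →L[ℂ] H) ≤ star A * A - algebraMap ℝ (H →L[ℂ] H) (a ^ 2) := by
      rw [ContinuousLinearMap.nonneg_iff_isPositive, ContinuousLinearMap.isPositive_iff_complex]
      intro v
      have hv : ⟪(star A * A - algebraMap ℝ (H →L[ℂ] H) (a ^ 2)) v, v⟫_ℂ
          = ((‖A v‖ ^ 2 - a ^ 2 * ‖v‖ ^ 2 : ℝ) : ℂ) := by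
        rw [sub_apply, inner_sub_left, inner_star_mul_self,
          inner_algebraMap]
        push_cast; ring
      rw [hv, RCLike.re_to_complex, Complex.ofReal_re]
      refine ⟨rfl, ?_⟩
      have h1 : a * ‖v‖ ≤ ‖A v‖ := hA v
      have h2 : 0 ≤ a * ‖v‖ := mul_nonneg ha (norm_nonneg _)
      nlinarith [h1, h2]
    have hmem : x - a ^ 2 ∈ spectrum ℝ (star A * A - algebraMap ℝ (H →L[ℂ] H) (a ^ 2)) := by
      rw [← spectrum.sub_singleton_eq]
      exact Set.sub_mem_sub hx (Set.mem_singleton _)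
    have := spectrum_nonneg_of_nonneg hpos hmem
    linarith
  · -- upper bound: `‖A‖² - A* A ≥ 0`
    have hpos : (0 : H →L[ℂ] H) ≤ algebraMap ℝ (H →L[ℂ] H) (‖A‖ ^ 2) - star A * A := by
      rw [ContinuousLinearMap.nonneg_iff_isPositive, ContinuousLinearMap.isPositive_iff_complex]
      intro v
      have hv : ⟪(algebraMap ℝ (H →L[ℂ] H) (‖A‖ ^ 2) - star A * A) v, v⟫_ℂ
          = ((‖A‖ ^ 2 * ‖v‖ ^ 2 - ‖A v‖ ^ 2 : ℝ) : ℂ) := by
        rw [sub_apply, inner_sub_left, inner_star_mul_self,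
          inner_algebraMap]
        push_cast; ring
      rw [hv, RCLike.re_to_complex, Complex.ofReal_re]
      refine ⟨rfl, ?_⟩
      have h1 : ‖A v‖ ≤ ‖A‖ * ‖v‖ := A.le_opNorm v
      have h2 : 0 ≤ ‖A v‖ := norm_nonneg _
      nlinarith [h1, h2]
    have hmem : ‖A‖ ^ 2 - x ∈ spectrum ℝ (algebraMap ℝ (H →L[ℂ] H) (‖A‖ ^ 2) - star A * A) := by
      rw [← spectrum.singleton_sub_eq]
      exact Set.sub_mem_sub (Set.mem_singleton _) hx
    have := spectrum_nonneg_of_nonneg hpos hmem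
    linarith

set_option linter.unusedSectionVars false in
/-- Leaf A0 (Order): the quadratic form is monotone. -/
theorem re_inner_le_of_le (ξ : H) (P Q : H →L[ℂ] H) (h : P ≤ Q) :
    RCLike.re (inner ℂ ξ (P ξ)) ≤ RCLike.re (inner ℂ ξ (Q ξ)) := by
  rw [ContinuousLinearMap.le_def] at h
  have h1 := h.re_inner_nonneg_right ξ
  rw [sub_apply, inner_sub_right, map_sub] at h1
  linarith

end Crest.Agent.Helper69.S0151
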